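import Vale.Agent.P088.R2.H338.E.Pay
import Vale.Agent.P088.R2.H935.E.Gain
import Vale.Agent.P088.R2.H86.Z.Abs

/-!
# P088, stage 3: the margins `s |X a|²`, `s F a²` from the squares and the zero order margins

With the weight `χ² s` and no second derivative of `χ`, `s`:
`∫ χ² s (|X u|² + F u²) ≤ 8 δ ∫ χ² (P u)² + ∫ χ² Q u² + 64 ∫ s Γ(χ, χ) u²`,
`Q = s (8 |v| + 45 F + 8 |Λ W|) + 2 s² / δ + 16 r`, `Γ(s, s) ≤ s r`.
`unit_of`: a zone inequality with the margins `M + N`, where `N` dominates `8 δ sqd`,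
`Q₁ a² + Q₂ b²`, gives the one with the margins `M + s (|X a|² + |X b|² + F a² + F' b²)`.
-/

open MeasureTheory Set Filter
open scoped ContDiff Topology

noncomputable section

namespace Vale.Agent.P088.R2.H972.E

open Vale.Agent.P088.R2.H961.GW Vale.Agent.P088.R2.H960.W Vale.Agent.P088.R2.H644
  Vale.Agent.P088.R2.H551.E Vale.Agent.P088.R2.H86.Z

variable {E ι κ : Type*} [NormedAddCommGroup E] [NormedSpace ℝ E] [Fintype ι] [Fintype κ]

/-- The arithmetic of Cauchy–Schwarz. -/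
theorem am_cs {a b w : ℝ} (ha : 0 ≤ a) (hb : 0 ≤ b) (h : w ^ 2 ≤ a * b) (t : ℝ) :
    2 * t * w ≤ a + t ^ 2 * b := by
  have h1 : (2 * t * w) ^ 2 ≤ (a + t ^ 2 * b) ^ 2 := by
    have : (2 * t * w) ^ 2 = 4 * t ^ 2 * w ^ 2 := by ring
    rw [this]
    have h2 : 4 * t ^ 2 * w ^ 2 ≤ 4 * t ^ 2 * (a * b) :=
      mul_le_mul_of_nonneg_left h (by positivity)
    nlinarith [sq_nonneg (a - t ^ 2 * b)]
  exact (abs_le_of_sq_le_sq' h1 (by positivity)).2

/-- A density with vanishing integral. -/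
def rem (σ : Sl E ι) (v W om u : E → ℝ) (z : E) : ℝ :=
  om z * σ.Γ u u z + om z * u z * σ.P v W u z -
    om z * (v z + σ.F W z + σ.Λ W z) * u z ^ 2 - 2 * (om z * u z * σ.Γ W u z) + u z * σ.Γ om u z

/-- The coefficient of `u²`. -/
def Qz (σ : Sl E ι) (v W s r : E → ℝ) (δ : ℝ) (z : E) : ℝ :=
  s z * (8 * |v z| + 45 * σ.F W z + 8 * |σ.Λ W z|) + 2 / δ * s z ^ 2 + 16 * r z

section pw

variable {σ : Sl E ι} {U : Set E} {θ : E → ℝ} {v W χ s r om u : E → ℝ} {z : E} {δ : ℝ}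

omit [NormedAddCommGroup E] [NormedSpace ℝ E] in
theorem El.psd (el : ∀ z ∈ U, El σ z) : Psd σ U := fun z hz x => by
  have h1 := (el z hz).lo x
  have h0 : 0 ≤ ∑ i, x i ^ 2 := Finset.sum_nonneg fun i _ => sq_nonneg _
  linarith

theorem trem (ok : σ.Ok U θ) (hv : Sm U v) (hW : Sm U W) (hom : Sm U om) (hu : Te U u) :
    Te U (rem σ v W om u) := by
  have hU := ok.op
  have t1 := (ok.tG hu.sm hu).mul_left hU hom
  have t2 := (ok.tP hv hW hu).mul_left hU (hom.mul hu.sm)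
  have t3 := (hu.sq hU).mul_left hU (hom.mul ((hv.add (ok.sF hW)).add (ok.sL hW)))
  have t4 := ((ok.tG hW hu).mul_left hU (hom.mul hu.sm)).cmul hU 2
  have t5 := (ok.tG hom hu).mul_left hU hu.sm
  exact (((t1.add hU t2).sub hU t3).sub hU t4).add hU t5

/-- **The pointwise inequality.** -/
theorem pt_X (ok : σ.Ok U θ) (el : ∀ z ∈ U, El σ z) (hχ : Sm U χ) (hs : Sm U s) (hδ : 0 < δ)
    (hz : z ∈ U) (hs0 : 0 ≤ s z) (hr0 : 0 ≤ r z) (hr : χ z ≠ 0 → σ.Γ s s z ≤ s z * r z) :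
    χ z ^ 2 * (s z * ∑ i, Ch.XX σ W u z i ^ 2 + s z * σ.F W z * u z ^ 2) ≤
      χ z ^ 2 * (8 * δ * σ.P v W u z ^ 2 + Qz σ v W s r δ z * u z ^ 2) +
        64 * (s z * σ.Γ χ χ z) * u z ^ 2 + 8 * rem σ v W (fun z => χ z ^ 2 * s z) u z := by
  have p := El.psd el
  have hχ2 : Sm U fun z => χ z ^ 2 := hχ.pow 2
  have eG : σ.Γ (fun z => χ z ^ 2 * s z) u z =
      χ z ^ 2 * σ.Γ u s z + 2 * (s z * χ z * σ.Γ u χ z) := by
    rw [G_comm ok _ u, G_mul ok u hχ2 hs hz, G_sq ok u hχ hz]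
    ring
  have hG := p.G u hz
  have hF : 0 ≤ σ.F W z := p.G W hz
  have hC := p.G χ hz
  have c1 := p.cs ok W u hz
  have c2 := p.cs ok u s hz
  have c3 := p.cs ok u χ hz
  have hX : ∑ i, Ch.XX σ W u z i ^ 2 ≤
      2 * (σ.Γ u u z - 2 * u z * σ.Γ W u z + u z ^ 2 * σ.F W z) := by
    have h := (el z hz).lo fun i => Ch.XX σ W u z i
    have e : ∑ i, ∑ j, σ.s i j z * Ch.XX σ W u z i * Ch.XX σ W u z j = H935.Gn.sXX σ W u z := rfl
    rw [e, H935.Gn.sXX_eq ok] at h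
    exact h
  have c1' : σ.Γ W u z ^ 2 ≤ σ.Γ u u z * σ.F W z := by
    have : σ.F W z = σ.Γ W W z := rfl
    rw [this]; linarith
  have a1 := am_cs hG hF c1' (-u z)
  have a2 := am_cs hG hF c1' (4 * u z)
  have c3' : (χ z * σ.Γ u χ z) ^ 2 ≤ (χ z ^ 2 * σ.Γ u u z) * σ.Γ χ χ z := by
    have := mul_le_mul_of_nonneg_left c3 (sq_nonneg (χ z))
    nlinarith [this]
  have a3 := am_cs (mul_nonneg (sq_nonneg _) hG) hC c3' (-(8 * u z))
  have hX' : ∑ i, Ch.XX σ W u z i ^ 2 ≤ 4 * σ.Γ u u z + 4 * (σ.F W z * u z ^ 2) := by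
    nlinarith [hX, a1]
  have hv1 : v z ≤ |v z| := le_abs_self _
  have hl1 : σ.Λ W z ≤ |σ.Λ W z| := le_abs_self _
  have sq1 : 0 ≤ 2 / δ * (2 * δ * σ.P v W u z + s z * u z) ^ 2 := by positivity
  have sq1' : 2 / δ * (2 * δ * σ.P v W u z + s z * u z) ^ 2 = 8 * δ * σ.P v W u z ^ 2 +
      8 * (s z * u z * σ.P v W u z) + 2 / δ * s z ^ 2 * u z ^ 2 := by
    field_simp
    ring
  rw [sq1'] at sq1
  have hu2 := sq_nonneg (u z)
  have hχz := sq_nonneg (χ z)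
  unfold rem
  rw [eG]
  by_cases h0 : χ z = 0
  · have h64 : 0 ≤ 64 * (s z * σ.Γ χ χ z) * u z ^ 2 := by positivity
    beta_reduce
    rw [h0]
    linear_combination h64
  · have c2' : σ.Γ u s z ^ 2 ≤ (s z * σ.Γ u u z) * r z := by
      have := mul_le_mul_of_nonneg_left (hr h0) hG
      linarith
    have a4 := am_cs (mul_nonneg hs0 hG) hr0 c2' (-(4 * u z))
    unfold Qz
    -- the parts
    have b1 : χ z ^ 2 * (s z * ∑ i, Ch.XX σ W u z i ^ 2) ≤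
        χ z ^ 2 * (s z * (4 * σ.Γ u u z + 4 * (σ.F W z * u z ^ 2))) :=
      mul_le_mul_of_nonneg_left (mul_le_mul_of_nonneg_left hX' hs0) hχz
    have b2 : χ z ^ 2 * (s z * (2 * (4 * u z) * σ.Γ W u z)) ≤
        χ z ^ 2 * (s z * (σ.Γ u u z + (4 * u z) ^ 2 * σ.F W z)) :=
      mul_le_mul_of_nonneg_left (mul_le_mul_of_nonneg_left a2 hs0) hχz
    have b3 := mul_le_mul_of_nonneg_left a3 hs0
    have b4 := mul_le_mul_of_nonneg_left a4 hχz
    have b5 := mul_nonneg hχz sq1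
    have b6 : 0 ≤ χ z ^ 2 * (s z * ((|v z| - v z) * u z ^ 2)) :=
      mul_nonneg hχz (mul_nonneg hs0 (mul_nonneg (by linarith) hu2))
    have b7 : 0 ≤ χ z ^ 2 * (s z * ((|σ.Λ W z| - σ.Λ W z) * u z ^ 2)) :=
      mul_nonneg hχz (mul_nonneg hs0 (mul_nonneg (by linarith) hu2))
    linear_combination b1 + 2 * b2 + b3 + b4 + b5 + 8 * b6 + 8 * b7

end pw

/-- The new margins. -/
def zsq (σ : Sl E ι) (τ : Sl E κ) (W s : E → ℝ) : Q8 E :=
  ⟨fun _ => 0, s, s, fun _ => 0, fun z => s z * σ.F W z, fun z => s z * τ.F W z, fun _ => 0,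
    fun _ => 0⟩

/-- The new costs. -/
def cuq (σ : Sl E ι) (τ : Sl E κ) (s χ : E → ℝ) : Q8 E :=
  ⟨fun _ => 0, fun _ => 0, fun _ => 0, fun _ => 0, fun z => 64 * (s z * σ.Γ χ χ z),
    fun z => 64 * (s z * τ.Γ χ χ z), fun _ => 0, fun _ => 0⟩

theorem zsq_ct {σ : Sl E ι} {τ : Sl E κ} {U : Set E} {θ W s : E → ℝ} (ok : σ.Ok U θ)
    (ot : τ.Ok U θ) (hW : Sm U W) (hs : ContinuousOn s U) : (zsq σ τ W s).Ct U :=
  ⟨continuousOn_const, hs, hs, continuousOn_const, hs.mul (ok.sF hW).continuousOn,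
    hs.mul (ot.sF hW).continuousOn, continuousOn_const, continuousOn_const⟩

theorem cuq_ct {σ : Sl E ι} {τ : Sl E κ} {U : Set E} {θ s χ : E → ℝ} (ok : σ.Ok U θ)
    (ot : τ.Ok U θ) (hχ : Sm U χ) (hs : ContinuousOn s U) : (cuq σ τ s χ).Ct U :=
  ⟨continuousOn_const, continuousOn_const, continuousOn_const, continuousOn_const,
    continuousOn_const.mul (hs.mul (ok.sG hχ hχ).continuousOn),
    continuousOn_const.mul (hs.mul (ot.sG hχ hχ).continuousOn), continuousOn_const,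
    continuousOn_const⟩

omit [NormedSpace ℝ E] in
theorem ct_add {U : Set E} {p q : Q8 E} (hp : p.Ct U) (hq : q.Ct U) : (p + q).Ct U :=
  ⟨hp.κ.add hq.κ, hp.ζ₁.add hq.ζ₁, hp.ζ₂.add hq.ζ₂, hp.ζy.add hq.ζy, hp.w₁.add hq.w₁,
    hp.w₂.add hq.w₂, hp.wb.add hq.wb, hp.wc.add hq.wc⟩

/-- `N` dominates what the conversion uses. -/
structure Dom (σ τ : Sl E ι) (v₁ v₂ W s r₁ r₂ : E → ℝ) (δ : ℝ) (N : Q8 E) (z : E) : Prop where
  κ : 8 * δ ≤ N.κ z
  ζ₁ : 0 ≤ N.ζ₁ z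
  ζ₂ : 0 ≤ N.ζ₂ z
  ζy : 0 ≤ N.ζy z
  w : ∀ x y : ℝ, Qz σ v₁ W s r₁ δ z * x ^ 2 + Qz τ v₂ W s r₂ δ z * y ^ 2 ≤
    N.w₁ z * x ^ 2 + N.w₂ z * y ^ 2 + N.wb z * (x + y) ^ 2 + N.wc z * (x - y) ^ 2
  r₁ : 0 ≤ r₁ z ∧ σ.Γ s s z ≤ s z * r₁ z
  r₂ : 0 ≤ r₂ z ∧ τ.Γ s s z ≤ s z * r₂ z

variable [MeasureSpace E] [FiniteDimensional ℝ E] [BorelSpace E]
  [(volume : Measure E).IsAddHaarMeasure]

theorem In_rem {σ : Sl E ι} {U : Set E} {θ v W om u : E → ℝ} (ok : σ.Ok U θ) (hW : Sm U W)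
    (hom : Sm U om) (hu : Te U u) : In U θ (rem σ v W om u) = 0 := by
  have hU := ok.op
  have tu : Te U fun z => om z * u z := hu.mul_left hU hom
  rw [← H935.Gn.In_B ok hu.sm tu]
  refine In_congr hU fun z hz => ?_
  rw [G_mul ok u hom hu.sm hz]
  unfold rem Sl.P Sl.K
  rw [G_comm ok om u]
  ring

/-- **The conversion.** -/
theorem unit_of {σ τ : Sl E ι} {U : Set E} {θ v₁ v₂ W χ s r₁ r₂ : E → ℝ} {δ : ℝ}
    (ok : σ.Ok U θ) (ot : τ.Ok U θ) (hv₁ : Sm U v₁) (hv₂ : Sm U v₂)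
    (el₁ : ∀ z ∈ U, El σ z) (el₂ : ∀ z ∈ U, El τ z) (hW : Sm U W) (hχ : Sm U χ) (hs : Sm U s)
    (hs0 : ∀ z ∈ U, 0 ≤ s z) (hδ : 0 < δ) {M N co : Q8 E} (cM : M.Ct U) (cN : N.Ct U)
    (cc : co.Ct U) (hN : ∀ z ∈ U, χ z ≠ 0 → Dom σ τ v₁ v₂ W s r₁ r₂ δ N z)
    (zone : Zone σ τ U θ v₁ v₂ W χ ((M + N).sm fun z => χ z ^ 2) co) :
    Zone σ τ U θ v₁ v₂ W χ ((M + zsq σ τ W s).sm fun z => χ z ^ 2) (co + cuq σ τ s χ) := by
  intro a b ha hb
  refine le_trans ?_ (zone a b ha hb)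
  have hU := ok.op
  have hχc : ContinuousOn (fun z => χ z ^ 2) U := hχ.continuousOn.pow 2
  have hom : Sm U fun z => χ z ^ 2 * s z := (hχ.pow 2).mul hs
  have cz := zsq_ct (s := s) ok ot hW hs.continuousOn
  have cu := cuq_ct (s := s) ok ot hχ hs.continuousOn
  have iM := Q8.int_dens ok ot hv₁ hv₂ hW ha hb (H338.E.ct_sm hχc cM)
  have iN := Q8.int_dens ok ot hv₁ hv₂ hW ha hb (H338.E.ct_sm hχc cN)
  have iz := Q8.int_dens ok ot hv₁ hv₂ hW ha hb (H338.E.ct_sm hχc cz)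
  have ic := Q8.int_dens ok ot hv₁ hv₂ hW ha hb cc
  have iu := Q8.int_dens ok ot hv₁ hv₂ hW ha hb cu
  have t1 := trem (v := v₁) ok hv₁ hW hom ha
  have t2 := trem (v := v₂) ot hv₂ hW hom hb
  have i1 := te_int hU ok.ts t1
  have i2 := te_int hU ok.ts t2
  have z1 : In U θ (rem σ v₁ W (fun z => χ z ^ 2 * s z) a) = 0 := In_rem ok hW hom ha
  have z2 : In U θ (rem τ v₂ W (fun z => χ z ^ 2 * s z) b) = 0 := In_rem ot hW hom hb
  have sp : ∀ (A B : Q8 E), IntegrableOn (fun z => θ z *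
      (A.sm fun z => χ z ^ 2).dens σ τ v₁ v₂ W a b z) U → IntegrableOn (fun z => θ z *
      (B.sm fun z => χ z ^ 2).dens σ τ v₁ v₂ W a b z) U →
      In U θ (((A + B).sm fun z => χ z ^ 2).dens σ τ v₁ v₂ W a b) =
      In U θ ((A.sm fun z => χ z ^ 2).dens σ τ v₁ v₂ W a b) +
      In U θ ((B.sm fun z => χ z ^ 2).dens σ τ v₁ v₂ W a b) := by
    intro A B iA iB
    unfold In
    rw [← integral_add iA iB]
    refine setIntegral_congr_fun hU.measurableSet fun z _ => ?_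
    simp only [Q8.dens_sm, Q8.dens_add]
    ring
  have spc : In U θ ((co + cuq σ τ s χ).dens σ τ v₁ v₂ W a b) =
      In U θ (co.dens σ τ v₁ v₂ W a b) + In U θ ((cuq σ τ s χ).dens σ τ v₁ v₂ W a b) := by
    unfold In
    rw [← integral_add ic iu]
    refine setIntegral_congr_fun hU.measurableSet fun z _ => ?_
    simp only [Q8.dens_add]
    ring
  rw [sp M _ iM iz, sp M N iM iN, spc]
  have key : In U θ (((zsq σ τ W s).sm fun z => χ z ^ 2).dens σ τ v₁ v₂ W a b) ≤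
      In U θ ((N.sm fun z => χ z ^ 2).dens σ τ v₁ v₂ W a b) +
      In U θ ((cuq σ τ s χ).dens σ τ v₁ v₂ W a b) +
      8 * (In U θ (rem σ v₁ W (fun z => χ z ^ 2 * s z) a) +
        In U θ (rem τ v₂ W (fun z => χ z ^ 2 * s z) b)) := by
    have e : In U θ ((N.sm fun z => χ z ^ 2).dens σ τ v₁ v₂ W a b) +
      In U θ ((cuq σ τ s χ).dens σ τ v₁ v₂ W a b) +
      8 * (In U θ (rem σ v₁ W (fun z => χ z ^ 2 * s z) a) +
        In U θ (rem τ v₂ W (fun z => χ z ^ 2 * s z) b)) = ∫ z in U,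
        (θ z * (N.sm fun z => χ z ^ 2).dens σ τ v₁ v₂ W a b z +
        θ z * (cuq σ τ s χ).dens σ τ v₁ v₂ W a b z) +
        8 * (θ z * rem σ v₁ W (fun z => χ z ^ 2 * s z) a z +
          θ z * rem τ v₂ W (fun z => χ z ^ 2 * s z) b z) := by
      have e3 := integral_add (iN.add iu) ((i1.add i2).const_mul 8)
      have e2 := integral_add i1 i2
      have e1 := integral_add iN iu
      simp only [Pi.add_apply] at e1 e2 e3
      rw [e3, integral_const_mul, e2, e1]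
      rfl
    rw [e]
    refine setIntegral_mono_on iz ((iN.add iu).add ((i1.add i2).const_mul 8)) hU.measurableSet
      fun z hz => ?_
    have hq : ((zsq σ τ W s).sm fun z => χ z ^ 2).dens σ τ v₁ v₂ W a b z ≤
        (N.sm fun z => χ z ^ 2).dens σ τ v₁ v₂ W a b z +
        (cuq σ τ s χ).dens σ τ v₁ v₂ W a b z +
        8 * (rem σ v₁ W (fun z => χ z ^ 2 * s z) a z +
          rem τ v₂ W (fun z => χ z ^ 2 * s z) b z) := by
      rw [Q8.dens_sm, Q8.dens_sm]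
      have ez : (zsq σ τ W s).dens σ τ v₁ v₂ W a b z =
          (s z * ∑ i, Ch.XX σ W a z i ^ 2 + s z * σ.F W z * a z ^ 2) +
          (s z * ∑ i, Ch.XX τ W b z i ^ 2 + s z * τ.F W z * b z ^ 2) := by
        unfold Q8.dens zsq nX
        ring
      have eu : (cuq σ τ s χ).dens σ τ v₁ v₂ W a b z =
          64 * (s z * σ.Γ χ χ z) * a z ^ 2 + 64 * (s z * τ.Γ χ χ z) * b z ^ 2 := by
        unfold Q8.dens cuq
        ring
      rw [ez, eu]
      have hχz := sq_nonneg (χ z)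
      by_cases h0 : χ z = 0
      · have p1 := pt_X (v := v₁) (W := W) (u := a) (r := fun _ => 0) ok el₁ hχ hs hδ hz (hs0 z hz)
          le_rfl fun h => absurd h0 h
        have p2 := pt_X (v := v₂) (W := W) (u := b) (r := fun _ => 0) ot el₂ hχ hs hδ hz (hs0 z hz)
          le_rfl fun h => absurd h0 h
        rw [h0] at p1 p2 ⊢
        simp only [ne_eq, OfNat.ofNat_ne_zero, not_false_eq_true, zero_pow, zero_mul] at p1 p2 ⊢
        linarith
      · have d := hN z hz h0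
        have p1 := pt_X (v := v₁) (W := W) (u := a) ok el₁ hχ hs hδ hz (hs0 z hz) d.r₁.1
          fun _ => d.r₁.2
        have p2 := pt_X (v := v₂) (W := W) (u := b) ot el₂ hχ hs hδ hz (hs0 z hz) d.r₂.1
          fun _ => d.r₂.2
        have hd : 8 * δ * σ.P v₁ W a z ^ 2 + Qz σ v₁ W s r₁ δ z * a z ^ 2 +
            (8 * δ * τ.P v₂ W b z ^ 2 + Qz τ v₂ W s r₂ δ z * b z ^ 2) ≤
            N.dens σ τ v₁ v₂ W a b z := by
          have k0 : σ.P v₁ W a z ^ 2 + τ.P v₂ W b z ^ 2 ≤ sqd σ τ v₁ v₂ W a b z := by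
            unfold sqd
            have := sq_nonneg (τ.P v₂ W a z)
            have := sq_nonneg (σ.P v₁ W b z)
            linarith
          have k1 := mul_le_mul_of_nonneg_right d.κ (sqd_nonneg σ τ v₁ v₂ W a b z)
          have k2 := mul_le_mul_of_nonneg_left k0 (by positivity : 0 ≤ 8 * δ)
          have k3 := mul_nonneg d.ζ₁ (Q8.nX_nonneg σ W a z)
          have k4 := mul_nonneg d.ζ₂ (Q8.nX_nonneg τ W b z)
          have k5 := mul_nonneg d.ζy (Q8.nY_nonneg σ τ W a b z)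
          have k6 := d.w (a z) (b z)
          unfold Q8.dens
          linarith
        have := mul_le_mul_of_nonneg_left hd hχz
        linarith
    have := mul_le_mul_of_nonneg_left hq (ok.tp z hz).le
    linarith
  rw [z1, z2] at key
  linarith

end Vale.Agent.P088.R2.H972.E
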