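import Vale.Agent.P088.R2.H338.E.PR

/-!
# P088, stage 3: pair payments on the layers `eB`, `t`, `co` (zones I, II, core)

The costs `cI`, `cII`, `cB` against the margins `MI`, `MII`, `MB` (helper165's table), with separate
bounds of `|D_q χ|²`, `|D_p χ|²`; the general form `UP M c` (`M ≥ c uf`).
-/

open Set

noncomputable section

namespace Vale.Agent.P088.R2.H972.E

open Vale.Agent.P088.R2.H961.GW Vale.Agent.P088.R2.H644 Vale.Agent.P088.R2.H551.E
open Vale.Agent.P088.R2.H165.Tab Vale.Agent.P088.R2.H338.E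

variable {E ι : Type*} [NormedAddCommGroup E] [NormedSpace ℝ E] [Fintype ι]
variable {σ τ : Sl E ι} {v₁ v₂ W a b : E → ℝ} {z : E}

/-- The margin `M` dominates `c` times the unit density. -/
structure UP (ν : Nu E) (M : Q8 E) (c : ℝ) (z : E) : Prop extends Nn M z where
  u1 : c ≤ M.ζ₁ z
  u2 : c ≤ M.ζ₂ z
  uy : c * (ν.r2 z)⁻¹ ≤ M.ζy z
  f1 : c * ν.F₁ z ≤ M.w₁ z
  f2 : c * ν.F₂ z ≤ M.w₂ z
  ub : c * ν.En z ^ 2 ≤ M.wb z

/-- The numbers of a near point are nonnegative. -/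
structure NN (ν : Nu E) (z : E) : Prop where
  En : 0 < ν.En z
  m : 0 ≤ ν.m z
  r : 0 < ν.r2 z
  mr : ν.m z = ν.En z * ν.r2 z
  k : 0 ≤ ν.k z
  F₁ : 0 ≤ ν.F₁ z
  F₂ : 0 ≤ ν.F₂ z

omit [NormedAddCommGroup E] [NormedSpace ℝ E] in
theorem UP.mono {ν : Nu E} {M : Q8 E} {c c' : ℝ} (nn : NN ν z) (h : UP ν M c z) (hc : c' ≤ c) :
    UP ν M c' z := by
  have h1 := nn.r
  have h2 := nn.F₁
  have h3 := nn.F₂
  exact ⟨h.toNn, hc.trans h.u1, hc.trans h.u2,
    (mul_le_mul_of_nonneg_right hc (by positivity)).trans h.uy,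
    (mul_le_mul_of_nonneg_right hc h2).trans h.f1, (mul_le_mul_of_nonneg_right hc h3).trans h.f2,
    (mul_le_mul_of_nonneg_right hc (sq_nonneg _)).trans h.ub⟩

omit [NormedAddCommGroup E] [NormedSpace ℝ E] in
theorem inv_m {ν : Nu E} (nn : NN ν z) (hm : 0 < ν.m z) : (ν.r2 z)⁻¹ = ν.En z / ν.m z := by
  have h1 := nn.r
  have h2 := nn.En
  rw [nn.mr]
  field_simp

/-- Region I dominates the unit density where `m ≥ 1`. -/
theorem up_MI {ν : Nu E} {c : ℝ} (nn : NN ν z) (hc : 0 ≤ c) (hm : 1 ≤ ν.m z) :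
    UP ν (MI ν c) c z := by
  have h1 := nn.r
  have h2 := nn.En
  have h3 := nn.F₁
  have h4 := nn.F₂
  have h5 := nn.m
  have hi : (ν.r2 z)⁻¹ ≤ ν.En z := by
    rw [inv_m nn (by linarith)]
    exact div_le_self h2.le hm
  refine ⟨⟨hc, hc, hc, mul_nonneg hc h2.le, mul_nonneg hc h3, mul_nonneg hc h4,
    mul_nonneg hc (sq_nonneg _), ?_⟩, le_rfl, le_rfl, mul_le_mul_of_nonneg_left hi hc, le_rfl,
    le_rfl, le_rfl⟩
  simp only [MI, Nu.wI]
  positivity

/-- The core dominates half of the unit density where `m ≥ 1`. -/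
theorem up_MB {ν : Nu E} {c : ℝ} (nn : NN ν z) (hc : 0 ≤ c) (hm : 1 ≤ ν.m z) :
    UP ν (MB ν c) (c / 2) z := by
  have h1 := nn.r
  have h2 := nn.En
  have h3 := nn.F₁
  have h4 := nn.F₂
  have h5 := nn.m
  have hcc : c / 2 ≤ c := by linarith
  have hi : c / 2 * (ν.r2 z)⁻¹ ≤ c * (ν.En z / (1 + ν.m z)) := by
    rw [inv_m nn (by linarith)]
    have : ν.En z / ν.m z / 2 ≤ ν.En z / (1 + ν.m z) := by
      rw [div_div]
      exact div_le_div_of_nonneg_left h2.le (by positivity) (by linarith)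
    have h' := mul_le_mul_of_nonneg_left this hc
    have e0 : c / 2 * (ν.En z / ν.m z) = c * (ν.En z / ν.m z / 2) := by ring
    rw [e0]
    exact h'
  refine ⟨⟨hc, hc, hc, by simp only [MB]; positivity, mul_nonneg hc h3, mul_nonneg hc h4,
    mul_nonneg hc (sq_nonneg _), ?_⟩, hcc, hcc, hi, mul_le_mul_of_nonneg_right hcc h3,
    mul_le_mul_of_nonneg_right hcc h4, mul_le_mul_of_nonneg_right hcc (sq_nonneg _)⟩
  simp only [MB, Nu.wB]
  positivity

/-- Zone II dominates a quarter of the unit density where `k ≥ 1`. -/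
theorem up_MII {ν : Nu E} (nn : NN ν z) (hk : 1 ≤ ν.k z) : UP ν (MII ν) (1 / 4) z := by
  have h1 := nn.r
  have h2 := nn.En
  have h3 := nn.F₁
  have h4 := nn.F₂
  have h5 := nn.k
  refine ⟨⟨by simp only [MII]; norm_num, by simp only [MII]; positivity,
      by simp only [MII]; positivity, by simp only [MII]; positivity,
      by simp only [MII]; positivity, by simp only [MII]; positivity, sq_nonneg _, le_rfl⟩,
    by simp only [MII]; linarith, by simp only [MII]; linarith, le_rfl, ?_, ?_, ?_⟩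
  · simp only [MII]
    have := mul_le_mul_of_nonneg_right hk h3
    linarith
  · simp only [MII]
    have := mul_le_mul_of_nonneg_right hk h4
    linarith
  · simp only [MII]
    have := sq_nonneg (ν.En z)
    linarith

/-- `e uf ≤ M`. -/
theorem UP.pay {ν : Nu E} {M : Q8 E} {c e : ℝ} (nn : NN ν z) (h : UP ν M c z) (he : e ≤ c) :
    e * (uf ν).dens σ τ v₁ v₂ W a b z ≤ M.dens σ τ v₁ v₂ W a b z := by
  have h' := h.mono nn he
  refine pay8 e 0 0 0 0 le_rfl le_rfl le_rfl ?_ ?_ ?_ ?_ ?_ ?_ ?_ ?_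
  · simp only [uf, mul_zero]
    exact h.κ
  · simp only [uf, add_zero]
    exact h'.uy
  · simp only [uf, mul_one, mul_zero, add_zero]
    exact h'.u1
  · simp only [uf, mul_one, mul_zero, add_zero]
    exact h'.u2
  · simp only [uf, add_zero]
    exact h'.ub
  · simp only [uf, mul_zero, add_zero]
    exact h.wc
  · simp only [uf, mul_zero, add_zero]
    exact h'.f1
  · simp only [uf, mul_zero, add_zero]
    exact h'.f2

/-- **The cost of zone II against any payer of the unit density.** -/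
theorem UP.pay_cII {ν : Nu E} {M : Q8 E} {c C q : ℝ} {Z : E → ℝ} (nn : NN ν z)
    (h : UP ν M c z) (he : q * (C * Z z) ≤ c) :
    q * (cII ν C Z).dens σ τ v₁ v₂ W a b z ≤ M.dens σ τ v₁ v₂ W a b z := by
  rw [cII_eq]
  exact h.pay nn he

/-- **The cost of region I** against the letters `wb`, `wc` (region I, the core). -/
theorem pay_cI {C q : ℝ} {ν : Nu E} {Zq Zp : E → ℝ} {M : Q8 E} (hn : Nn M z)
    (h1 : q * (C * (ν.En z * Zq z)) ≤ M.wb z)
    (h2 : q * (C * (ν.En z * Zp z + Zq z)) ≤ M.wc z) :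
    q * (cI ν C Zq Zp).dens σ τ v₁ v₂ W a b z ≤ M.dens σ τ v₁ v₂ W a b z := by
  refine pay8 q 0 0 0 0 le_rfl le_rfl le_rfl ?_ ?_ ?_ ?_ ?_ ?_ ?_ ?_
  · simp only [cI, mul_zero]
    exact hn.κ
  · simp only [cI, mul_zero, add_zero]
    exact hn.ζy
  · simp only [cI, mul_zero, add_zero]
    exact hn.ζ₁
  · simp only [cI, mul_zero, add_zero]
    exact hn.ζ₂
  · simp only [cI, add_zero]
    linarith
  · simp only [cI, add_zero]
    linarith
  · simp only [cI, mul_zero, add_zero]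
    exact hn.w₁
  · simp only [cI, mul_zero, add_zero]
    exact hn.w₂

/-- **The cost of region I** against `wb` and `w₁`, `w₂` (zone II). -/
theorem pay_cI' {C q : ℝ} {ν : Nu E} {Zq Zp : E → ℝ} {M : Q8 E} (hn : Nn M z) (hq : 0 ≤ q)
    (hC : 0 ≤ C) (hE : 0 ≤ ν.En z) (hZq : 0 ≤ Zq z) (hZp : 0 ≤ Zp z)
    (h1 : q * (C * (ν.En z * Zq z)) ≤ M.wb z)
    (h2 : 2 * (q * (C * (ν.En z * Zp z + Zq z))) ≤ M.w₁ z)
    (h3 : 2 * (q * (C * (ν.En z * Zp z + Zq z))) ≤ M.w₂ z) :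
    q * (cI ν C Zq Zp).dens σ τ v₁ v₂ W a b z ≤ M.dens σ τ v₁ v₂ W a b z := by
  have k0 : 0 ≤ q * (C * (ν.En z * Zp z + Zq z)) := by positivity
  refine pay8 q 0 0 (q * (C * (ν.En z * Zp z + Zq z))) 0 le_rfl le_rfl k0 ?_ ?_ ?_ ?_ ?_ ?_ ?_ ?_
  · simp only [cI, mul_zero]
    exact hn.κ
  · simp only [cI, mul_zero, add_zero]
    exact hn.ζy
  · simp only [cI, mul_zero, add_zero]
    exact hn.ζ₁
  · simp only [cI, mul_zero, add_zero]
    exact hn.ζ₂
  · simp only [cI, add_zero]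
    linarith
  · simp only [cI, add_zero]
    linarith [hn.wc]
  · simp only [cI, mul_zero, add_zero, zero_add]
    linarith
  · simp only [cI, mul_zero, add_zero, zero_add]
    linarith

end Vale.Agent.P088.R2.H972.E
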