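import Vale.Agent.P088.R2.H86.Z.Abs

/-!
# P088, stage 3, zone II: the weighted assembly with relaxed cut-off conditions

As `H86.Z.zoneII`; the terms with a derivative of `χ` may also be bounded by `η χ²` times the
margins (`k` times the unit in `|A|²`, `F x²`), so that `Z` need only dominate what is left.
-/

open MeasureTheory Set Filter
open scoped ContDiff Topology

noncomputable section

namespace Vale.Agent.P088.R2.H972.E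

open Vale.Agent.P088.R2.H961.GW Vale.Agent.P088.R2.H644 Vale.Agent.P088.R2.H960.W
  Vale.Agent.P088.R2.H747.S Vale.Agent.P088.R2.H551.E Vale.Agent.P088.R2.H86.Z

variable {E ι κ α : Type*} [NormedAddCommGroup E] [NormedSpace ℝ E] [Fintype ι] [Fintype κ]
  [Fintype α]

/-- The pointwise hypotheses of one slot. -/
structure HS' (σ : Sl E ι) (W χ k Z v : E → ℝ) (c : ι → E → ℝ) (κ₀ η : ℝ) (z : E) : Prop where
  /-- the energy -/
  en : |k z * σ.Λ W z + σ.Γ k W z| ≤ η * (k z * σ.F W z)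
  /-- relaxed: `η χ² k` is allowed -/
  ch : |2 * χ z * (k z * σ.Γ χ W z)| ≤ (Z z + η * (χ z ^ 2 * k z)) * σ.F W z
  /-- the fields -/
  er : ∀ a : E → ℝ, 8 * |eC σ c v W a z| + 16 / κ₀ * cY σ c W a z ^ 2 ≤
    η * (k z * ((∑ i, YY σ W a i z ^ 2) + σ.F W z * a z ^ 2))

/-- The margins of zone II. -/
def um (σ : Sl E ι) (τ : Sl E κ) (W k g e : E → ℝ) (p : α → ι → E → ℝ) (q : α → κ → E → ℝ)
    (z : E) (A : ι → ℝ) (B : κ → ℝ) (x y : ℝ) : ℝ :=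
  g z * wq p q z A B + e z * (x + y) ^ 2 + k z * ((∑ i, A i ^ 2) + ∑ j, B j ^ 2) +
    (k z * σ.F W z * x ^ 2 + k z * τ.F W z * y ^ 2)

/-- The pointwise hypotheses of the pair. -/
structure HP' (σ : Sl E ι) (τ : Sl E κ) (v₁ v₂ W χ k g e Z : E → ℝ) (p : α → ι → E → ℝ)
    (q : α → κ → E → ℝ) (c : ι → E → ℝ) (c' : κ → E → ℝ) (L₀ C₁ η : ℝ) (z : E) : Prop where
  /-- the certificate, with all zero order terms -/
  tot : ∀ (A : ι → ℝ) (B : κ → ℝ) (x y : ℝ),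
    4 * (k z * ((∑ i, A i ^ 2) + ∑ j, B j ^ 2)) + L₀ * (g z * wq p q z A B) -
      C₁ * (e z * (x + y) ^ 2) - η * (k z * σ.F W z * x ^ 2 + k z * τ.F W z * y ^ 2) ≤
    8 * (Ch.TH σ τ W z A B + tc σ c W z A + tc τ c' W z B) + qf σ τ v₁ v₂ W z A B x y +
      16 * (dF σ c W z * x ^ 2 + dF τ c' W z * y ^ 2)
  /-- the turn-on terms, relaxed: `η χ²` times the margins is allowed -/
  on : ∀ (A : ι → ℝ) (B : κ → ℝ) (x y : ℝ),
    |2 * χ z * (8 * (onf σ c χ z (fun i => 2 * x * σ.D i W z - A i) +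
        onf τ c' χ z (fun i => 2 * y * τ.D i W z - B i)) +
      16 * (cD σ c χ z * σ.F W z * x ^ 2 + cD τ c' χ z * τ.F W z * y ^ 2))| ≤
    Z z * uf σ τ W g e p q z A B x y + η * (χ z ^ 2 * um σ τ W k g e p q z A B x y)

/-- The hypotheses of `H86.Z` are stronger. -/
theorem HS'.of {σ : Sl E ι} {W χ k Z v : E → ℝ} {c : ι → E → ℝ} {κ₀ η : ℝ} {z : E}
    (h : HS σ W χ k Z v c κ₀ η z) (hη : 0 ≤ η) (hk : 0 ≤ k z) (hF : 0 ≤ σ.F W z) :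
    HS' σ W χ k Z v c κ₀ η z := by
  refine ⟨h.en, h.ch.trans ?_, h.er⟩
  have : 0 ≤ η * (χ z ^ 2 * k z) * σ.F W z := by positivity
  linarith

section pw

variable {σ : Sl E ι} {τ : Sl E κ} {W k g e : E → ℝ} {p : α → ι → E → ℝ} {q : α → κ → E → ℝ}
  {z : E}

theorem um_nonneg (el₁ : El σ z) (el₂ : El τ z) (hk : 0 ≤ k z) (hg : 0 ≤ g z) (he : 0 ≤ e z)
    (A : ι → ℝ) (B : κ → ℝ) (x y : ℝ) : 0 ≤ um σ τ W k g e p q z A B x y := by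
  unfold um
  have h1 := mul_nonneg hg (wq_nonneg p q z A B)
  have h2 := mul_nonneg he (sq_nonneg (x + y))
  have h3 : 0 ≤ ∑ i, A i ^ 2 := Finset.sum_nonneg fun _ _ => sq_nonneg _
  have h4 : 0 ≤ ∑ i, B i ^ 2 := Finset.sum_nonneg fun _ _ => sq_nonneg _
  have h5 := mul_nonneg hk (add_nonneg h3 h4)
  have h6 := mul_nonneg (mul_nonneg hk (el₁.F0 W)) (sq_nonneg x)
  have h7 := mul_nonneg (mul_nonneg hk (el₂.F0 W)) (sq_nonneg y)
  linarith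

theorem HP'.of {v₁ v₂ χ Z : E → ℝ} {c : ι → E → ℝ} {c' : κ → E → ℝ} {L₀ C₁ η : ℝ}
    (h : HP σ τ v₁ v₂ W χ k g e Z p q c c' L₀ C₁ η z) (hη : 0 ≤ η) (el₁ : El σ z) (el₂ : El τ z)
    (hk : 0 ≤ k z) (hg : 0 ≤ g z) (he : 0 ≤ e z) :
    HP' σ τ v₁ v₂ W χ k g e Z p q c c' L₀ C₁ η z := by
  refine ⟨h.tot, fun A B x y => (h.on A B x y).trans ?_⟩
  have := um_nonneg (W := W) (p := p) (q := q) el₁ el₂ hk hg he A B x y
  have : 0 ≤ η * (χ z ^ 2 * um σ τ W k g e p q z A B x y) := by positivity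
  linarith

end pw

/-- The arithmetic at the end. -/
theorem fin_arith' {P X₁ X₂ F₁ F₂ Y₁ Y₂ Q S Z T κ₀ η δ L₀ C₁ C₂ : ℝ} (hκ : κ₀ = 1 / 8)
    (hη : 0 ≤ η) (hη1 : η * (C₁ + 10) ≤ 1 / 10) (hC1 : 0 ≤ C₁) (hδ : (C₁ + 1) * δ ≤ 1 / 8)
    (hL : (C₁ + 1) * C₂ + 1 ≤ L₀) (hP : 0 ≤ P) (hQ : 0 ≤ Q) (hS : 0 ≤ S) (hX1 : 0 ≤ X₁)
    (hX2 : 0 ≤ X₂) (hF1 : 0 ≤ F₁) (hF2 : 0 ≤ F₂) (hZ : 0 ≤ Z)
    (h1 : (1 - κ₀) * P + 4 * (X₁ + X₂) + L₀ * Q - C₁ * S - 2 * η * (F₁ + F₂) - η * (Y₁ + Y₂) - Z -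
      η * (Q + S + (X₁ + X₂) + (F₁ + F₂)) ≤ T)
    (f1 : (1 - 2 * η) * F₁ ≤ 2 * X₁ + Z) (f2 : (1 - 2 * η) * F₂ ≤ 2 * X₂ + Z)
    (y1 : Y₁ ≤ 4 * X₁ + 8 * η * F₁ + 4 * Z) (y2 : Y₂ ≤ 4 * X₂ + 8 * η * F₂ + 4 * Z)
    (kt : S ≤ C₂ * Q + δ * P + η * (F₁ + F₂) + Z) :
    1 / 2 * P + (X₁ + X₂) + 1 / 4 * (F₁ + F₂) + 1 / 2 * Q + 1 / 2 * S - (C₁ + 6) * Z ≤ T := by
  have hη2 : η ≤ 1 / 100 := by nlinarith
  have hX : 0 ≤ X₁ + X₂ := add_nonneg hX1 hX2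
  have hF : 0 ≤ F₁ + F₂ := add_nonneg hF1 hF2
  have g1 : η * (Y₁ + Y₂) ≤ 4 / 100 * (X₁ + X₂) + 1 / 100 * (F₁ + F₂) + 8 / 100 * Z := by
    have a1 : η * (Y₁ + Y₂) ≤ η * (4 * (X₁ + X₂) + 8 * η * (F₁ + F₂) + 8 * Z) :=
      mul_le_mul_of_nonneg_left (by linarith) hη
    have a2 : η * (4 * (X₁ + X₂) + 8 * η * (F₁ + F₂) + 8 * Z) ≤
        1 / 100 * (4 * (X₁ + X₂) + 8 * η * (F₁ + F₂) + 8 * Z) :=
      mul_le_mul_of_nonneg_right hη2 (by positivity)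
    have a3 : η * (F₁ + F₂) ≤ 1 / 100 * (F₁ + F₂) := mul_le_mul_of_nonneg_right hη2 hF
    linarith
  have g2 : (C₁ + 1) * S ≤ (C₁ + 1) * (C₂ * Q) + (C₁ + 1) * (δ * P) +
      (C₁ + 1) * (η * (F₁ + F₂)) + (C₁ + 1) * Z := by
    have := mul_le_mul_of_nonneg_left kt (by linarith : 0 ≤ C₁ + 1)
    linarith
  have g3 : (C₁ + 1) * (δ * P) ≤ 1 / 8 * P := by
    have := mul_le_mul_of_nonneg_right hδ hP
    linarith
  have g4 : (C₁ + 1) * (η * (F₁ + F₂)) + 3 * η * (F₁ + F₂) ≤ 1 / 10 * (F₁ + F₂) := by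
    have : η * (C₁ + 4) ≤ 1 / 10 := by linarith
    have := mul_le_mul_of_nonneg_right this hF
    linarith
  have g5 : ((C₁ + 1) * C₂ + 1) * Q ≤ L₀ * Q := mul_le_mul_of_nonneg_right hL hQ
  have g6 : 98 / 100 * (F₁ + F₂) ≤ 2 * (X₁ + X₂) + 2 * Z := by
    have : (1 - 2 * η) * (F₁ + F₂) ≤ 2 * (X₁ + X₂) + 2 * Z := by linarith
    have h2 : 98 / 100 * (F₁ + F₂) ≤ (1 - 2 * η) * (F₁ + F₂) :=
      mul_le_mul_of_nonneg_right (by linarith) hF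
    linarith
  have g7 : η * Q ≤ 1 / 100 * Q := mul_le_mul_of_nonneg_right hη2 hQ
  have g8 : η * S ≤ 1 / 100 * S := mul_le_mul_of_nonneg_right hη2 hS
  have g9 : η * (X₁ + X₂) ≤ 1 / 100 * (X₁ + X₂) := mul_le_mul_of_nonneg_right hη2 hX
  rw [hκ] at h1
  linarith

variable [MeasureSpace E] [FiniteDimensional ℝ E] [BorelSpace E]
  [(volume : Measure E).IsAddHaarMeasure]

section integral

variable {σ : Sl E ι} {τ : Sl E κ} {U : Set E} {θ : E → ℝ} {v v₁ v₂ W χ a b k g e Z : E → ℝ}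
  {c : ι → E → ℝ} {c' : κ → E → ℝ} {p : α → ι → E → ℝ} {q : α → κ → E → ℝ}
  {κ₀ η L₀ C₁ C₂ δ : ℝ}

/-- The energies of one slot with the weight `χ² k`. -/
theorem en_w' (ok : σ.Ok U θ) (el : ∀ z ∈ U, El σ z) (hW : Sm U W) (hχ : Sm U χ) (hk : Sm U k)
    (hZ : Sm U Z) (ha : Te U a) (hk0 : ∀ z ∈ U, 0 ≤ k z) (hZ0 : ∀ z ∈ U, 0 ≤ Z z) (hη : 0 ≤ η)
    (hs : ∀ z ∈ U, χ z ≠ 0 → HS' σ W χ k Z v c κ₀ η z) :
    (1 - 2 * η) * In U θ (fun z => χ z ^ 2 * (k z * σ.F W z * a z ^ 2)) ≤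
      2 * In U θ (fun z => χ z ^ 2 * (k z * ∑ i, XX σ W a i z ^ 2)) +
        In U θ (fun z => Z z * (σ.F W z * a z ^ 2)) ∧
    In U θ (fun z => χ z ^ 2 * (k z * ∑ i, YY σ W a i z ^ 2)) ≤
      4 * In U θ (fun z => χ z ^ 2 * (k z * ∑ i, XX σ W a i z ^ 2)) +
      8 * η * In U θ (fun z => χ z ^ 2 * (k z * σ.F W z * a z ^ 2)) +
      4 * In U θ (fun z => Z z * (σ.F W z * a z ^ 2)) := by
  have hU := ok.op
  have hχ2 : Sm U fun z => χ z ^ 2 := hχ.pow 2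
  have hZ' : Sm U fun z => Z z + η * (χ z ^ 2 * k z) :=
    hZ.add (contDiffOn_const.mul (hχ2.mul hk))
  have hZ0' : ∀ z ∈ U, 0 ≤ Z z + η * (χ z ^ 2 * k z) := fun z hz =>
    add_nonneg (hZ0 z hz) (mul_nonneg hη (mul_nonneg (sq_nonneg _) (hk0 z hz)))
  have h := en_w (v := v) (c := c) (κ₀ := κ₀) (η := η) ok el hW hχ hk hZ' ha hk0 hZ0'
    fun z hz hχz => ⟨(hs z hz hχz).en, (hs z hz hχz).ch, (hs z hz hχz).er⟩
  have tF : Te U fun z => χ z ^ 2 * (k z * σ.F W z * a z ^ 2) :=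
    ((ha.sq hU).mul_left hU (hk.mul (ok.sF hW))).mul_left hU hχ2
  have tFZ : Te U fun z => Z z * (σ.F W z * a z ^ 2) :=
    ((ha.sq hU).mul_left hU (ok.sF hW)).mul_left hU hZ
  have e : In U θ (fun z => (Z z + η * (χ z ^ 2 * k z)) * (σ.F W z * a z ^ 2)) =
      In U θ (fun z => Z z * (σ.F W z * a z ^ 2)) +
      η * In U θ (fun z => χ z ^ 2 * (k z * σ.F W z * a z ^ 2)) := by
    rw [← In_cmul, ← In_add hU ok.ts tFZ (tF.cmul hU η)]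
    refine In_congr hU fun z _ => ?_
    ring
  rw [e] at h
  constructor
  · linarith [h.1]
  · linarith [h.2]

/-- The errors of the fields of one slot. -/
theorem er_w' (ok : σ.Ok U θ) (hv : Sm U v) (hW : Sm U W) (hχ : Sm U χ) (hk : Sm U k)
    (ha : Te U a) (hc : ∀ i, Sm U (c i)) (el : ∀ z ∈ U, El σ z)
    (hs : ∀ z ∈ U, χ z ≠ 0 → HS' σ W χ k Z v c κ₀ η z) :
    -(η * (In U θ (fun z => χ z ^ 2 * (k z * ∑ i, YY σ W a i z ^ 2)) +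
        In U θ (fun z => χ z ^ 2 * (k z * σ.F W z * a z ^ 2)))) ≤
      8 * In U θ (fun z => χ z ^ 2 * eC σ c v W a z) -
      16 / κ₀ * In U θ (fun z => χ z ^ 2 * cY σ c W a z ^ 2) :=
  er_w (Z := fun z => Z z + η * (χ z ^ 2 * k z)) ok hv hW hχ hk ha hc
    fun z hz hχz => ⟨(hs z hz hχz).en, (hs z hz hχz).ch, (hs z hz hχz).er⟩

/-- **Zone II, from the pointwise inequalities and the inequality for `e (a + b)²`; relaxed
cut-off conditions.** -/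
theorem zoneII' (ok : σ.Ok U θ) (ot : τ.Ok U θ) (hv₁ : Sm U v₁) (hv₂ : Sm U v₂)
    (el₁ : ∀ z ∈ U, El σ z) (el₂ : ∀ z ∈ U, El τ z)
    (hW : Sm U W) (hχ : Sm U χ) (hk : Sm U k) (hg : Sm U g) (he : Sm U e) (hZ : Sm U Z)
    (hp : ∀ r i, Sm U (p r i)) (hq : ∀ r i, Sm U (q r i))
    (hc : ∀ i, Sm U (c i)) (hc' : ∀ i, Sm U (c' i)) (ha : Te U a) (hb : Te U b)
    (hk0 : ∀ z ∈ U, 0 ≤ k z) (hg0 : ∀ z ∈ U, 0 ≤ g z) (he0 : ∀ z ∈ U, 0 ≤ e z)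
    (hZ0 : ∀ z ∈ U, 0 ≤ Z z)
    (hs₁ : ∀ z ∈ U, χ z ≠ 0 → HS' σ W χ k Z v₁ c (1 / 8) η z)
    (hs₂ : ∀ z ∈ U, χ z ≠ 0 → HS' τ W χ k Z v₂ c' (1 / 8) η z)
    (hp' : ∀ z ∈ U, χ z ≠ 0 → HP' σ τ v₁ v₂ W χ k g e Z p q c c' L₀ C₁ η z)
    (hη : 0 ≤ η) (hη1 : η * (C₁ + 10) ≤ 1 / 10) (hC1 : 0 ≤ C₁) (hδ : (C₁ + 1) * δ ≤ 1 / 8)
    (hL : (C₁ + 1) * C₂ + 1 ≤ L₀)
    (kt : In U θ (fun z => χ z ^ 2 * (e z * (a z + b z) ^ 2)) ≤
      C₂ * In U θ (fun z => χ z ^ 2 * (g z * wq p q z (Ch.XX σ W a z) (Ch.XX τ W b z))) +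
      δ * In U θ (fun z => χ z ^ 2 * sqd σ τ v₁ v₂ W a b z) +
      η * (In U θ (fun z => χ z ^ 2 * (k z * σ.F W z * a z ^ 2)) +
        In U θ (fun z => χ z ^ 2 * (k z * τ.F W z * b z ^ 2))) +
      In U θ (fun z => Z z * ud σ τ W g e p q a b z)) :
    1 / 2 * In U θ (fun z => χ z ^ 2 * sqd σ τ v₁ v₂ W a b z) +
      (In U θ (fun z => χ z ^ 2 * (k z * ∑ i, XX σ W a i z ^ 2)) +
        In U θ (fun z => χ z ^ 2 * (k z * ∑ i, XX τ W b i z ^ 2))) +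
      1 / 4 * (In U θ (fun z => χ z ^ 2 * (k z * σ.F W z * a z ^ 2)) +
        In U θ (fun z => χ z ^ 2 * (k z * τ.F W z * b z ^ 2))) +
      1 / 2 * In U θ (fun z => χ z ^ 2 * (g z * wq p q z (Ch.XX σ W a z) (Ch.XX τ W b z))) +
      1 / 2 * In U θ (fun z => χ z ^ 2 * (e z * (a z + b z) ^ 2)) -
      (C₁ + 6) * In U θ (fun z => Z z * ud σ τ W g e p q a b z) ≤
      In U θ (fun z => χ z ^ 2 * dn σ τ v₁ v₂ W a b z) := by
  have hU := ok.op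
  have hχ2 : Sm U fun z => χ z ^ 2 := hχ.pow 2
  have tsq := (tsqd ok ot hv₁ hv₂ hW ha hb).mul_left hU hχ2
  have tst := (tsta ok ot hv₁ hv₂ hW ha hb).mul_left hU hχ2
  have tX1 := ((tsum ok hW ha).mul_left hU hk).mul_left hU hχ2
  have tX2 := ((tsum ot hW hb).mul_left hU hk).mul_left hU hχ2
  have tF1 : Te U fun z => χ z ^ 2 * (k z * σ.F W z * a z ^ 2) :=
    ((ha.sq hU).mul_left hU (hk.mul (ok.sF hW))).mul_left hU hχ2
  have tF2 : Te U fun z => χ z ^ 2 * (k z * τ.F W z * b z ^ 2) :=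
    ((hb.sq hU).mul_left hU (hk.mul (ot.sF hW))).mul_left hU hχ2
  have tQ := ((twq ok ot hp hq hW ha hb).mul_left hU hg).mul_left hU hχ2
  have tS := (((ha.add hU hb).sq hU).mul_left hU he).mul_left hU hχ2
  have tu := (tud ok ot hp hq hg he hW ha hb).mul_left hU hZ
  have tZ1 : Te U fun z => Z z * (σ.F W z * a z ^ 2) :=
    ((ha.sq hU).mul_left hU (ok.sF hW)).mul_left hU hZ
  have tZ2 : Te U fun z => Z z * (τ.F W z * b z ^ 2) :=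
    ((hb.sq hU).mul_left hU (ot.sF hW)).mul_left hU hZ
  have w1 := weylw ok hv₁ hW hχ ha hc (κ₀ := 1 / 8) (by norm_num)
  have w2 := weylw ot hv₂ hW hχ hb hc' (κ₀ := 1 / 8) (by norm_num)
  obtain ⟨f1, y1⟩ := en_w' ok el₁ hW hχ hk hZ ha hk0 hZ0 hη hs₁
  obtain ⟨f2, y2⟩ := en_w' ot el₂ hW hχ hk hZ hb hk0 hZ0 hη hs₂
  have r1 := er_w' ok hv₁ hW hχ hk ha hc el₁ hs₁
  have r2 := er_w' ot hv₂ hW hχ hk hb hc' el₂ hs₂
  have uZ : ∀ z ∈ U, 0 ≤ ud σ τ W g e p q a b z := by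
    intro z hz
    unfold ud uf
    have h1 := mul_nonneg (hg0 z hz) (wq_nonneg p q z (Ch.XX σ W a z) (Ch.XX τ W b z))
    have h2 := mul_nonneg (he0 z hz) (sq_nonneg (a z + b z))
    have h3 := mul_nonneg ((el₁ z hz).F0 W) (sq_nonneg (a z))
    have h4 := mul_nonneg ((el₂ z hz).F0 W) (sq_nonneg (b z))
    have h5 : 0 ≤ ∑ i, Ch.XX σ W a z i ^ 2 := Finset.sum_nonneg fun _ _ => sq_nonneg _
    have h6 : 0 ≤ ∑ i, Ch.XX τ W b z i ^ 2 := Finset.sum_nonneg fun _ _ => sq_nonneg _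
    linarith
  have zu : ∀ z ∈ U, σ.F W z * a z ^ 2 + τ.F W z * b z ^ 2 ≤ ud σ τ W g e p q a b z := by
    intro z hz
    unfold ud uf
    have h1 := mul_nonneg (hg0 z hz) (wq_nonneg p q z (Ch.XX σ W a z) (Ch.XX τ W b z))
    have h2 := mul_nonneg (he0 z hz) (sq_nonneg (a z + b z))
    have h5 : 0 ≤ ∑ i, Ch.XX σ W a z i ^ 2 := Finset.sum_nonneg fun _ _ => sq_nonneg _
    have h6 : 0 ≤ ∑ i, Ch.XX τ W b z i ^ 2 := Finset.sum_nonneg fun _ _ => sq_nonneg _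
    linarith
  have hZu : In U θ (fun z => Z z * (σ.F W z * a z ^ 2)) +
      In U θ (fun z => Z z * (τ.F W z * b z ^ 2)) ≤
      In U θ (fun z => Z z * ud σ τ W g e p q a b z) := by
    rw [← In_add hU ok.ts tZ1 tZ2]
    refine In_mono hU ok.tp ok.ts (tZ1.add hU tZ2) tu fun z hz => ?_
    have := mul_le_mul_of_nonneg_left (zu z hz) (hZ0 z hz)
    linarith
  have hZ1 : 0 ≤ In U θ (fun z => Z z * (σ.F W z * a z ^ 2)) :=
    In_nonneg hU ok.tp fun z hz =>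
      mul_nonneg (hZ0 z hz) (mul_nonneg ((el₁ z hz).F0 W) (sq_nonneg _))
  have hZ2 : 0 ≤ In U θ (fun z => Z z * (τ.F W z * b z ^ 2)) :=
    In_nonneg hU ok.tp fun z hz =>
      mul_nonneg (hZ0 z hz) (mul_nonneg ((el₂ z hz).F0 W) (sq_nonneg _))
  -- the turn-on terms
  have tM : Te U fun z => χ z ^ 2 * um σ τ W k g e p q z (Ch.XX σ W a z) (Ch.XX τ W b z)
      (a z) (b z) := by
    have := ((tQ.add hU tS).add hU (tX1.add hU tX2)).add hU (tF1.add hU tF2)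
    refine this.congr fun z => ?_
    have c3 : ∑ i, XX σ W a i z ^ 2 = ∑ i, Ch.XX σ W a z i ^ 2 := rfl
    have c4 : ∑ i, XX τ W b i z ^ 2 = ∑ i, Ch.XX τ W b z i ^ 2 := rfl
    unfold um
    rw [c3, c4]
    ring
  have eM : In U θ (fun z => χ z ^ 2 * um σ τ W k g e p q z (Ch.XX σ W a z) (Ch.XX τ W b z)
      (a z) (b z)) =
      In U θ (fun z => χ z ^ 2 * (g z * wq p q z (Ch.XX σ W a z) (Ch.XX τ W b z))) +
      In U θ (fun z => χ z ^ 2 * (e z * (a z + b z) ^ 2)) +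
      (In U θ (fun z => χ z ^ 2 * (k z * ∑ i, XX σ W a i z ^ 2)) +
        In U θ (fun z => χ z ^ 2 * (k z * ∑ i, XX τ W b i z ^ 2))) +
      (In U θ (fun z => χ z ^ 2 * (k z * σ.F W z * a z ^ 2)) +
        In U θ (fun z => χ z ^ 2 * (k z * τ.F W z * b z ^ 2))) := by
    rw [← In_add hU ok.ts tQ tS, ← In_add hU ok.ts tX1 tX2, ← In_add hU ok.ts tF1 tF2,
      ← In_add hU ok.ts (tQ.add hU tS) (tX1.add hU tX2),
      ← In_add hU ok.ts ((tQ.add hU tS).add hU (tX1.add hU tX2)) (tF1.add hU tF2)]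
    refine In_congr hU fun z _ => ?_
    have c3 : ∑ i, XX σ W a i z ^ 2 = ∑ i, Ch.XX σ W a z i ^ 2 := rfl
    have c4 : ∑ i, XX τ W b i z ^ 2 = ∑ i, Ch.XX τ W b z i ^ 2 := rfl
    unfold um
    rw [c3, c4]
    ring
  have ton : -(In U θ (fun z => Z z * ud σ τ W g e p q a b z) +
      η * In U θ (fun z => χ z ^ 2 * um σ τ W k g e p q z (Ch.XX σ W a z) (Ch.XX τ W b z)
        (a z) (b z))) ≤
      In U θ (tn σ c W χ a) + In U θ (tn τ c' W χ b) := by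
    have t1 := t_tn ok hW hχ ha hc
    have t2 := t_tn ot hW hχ hb hc'
    rw [← In_add hU ok.ts t1 t2, ← In_cmul, ← In_add hU ok.ts tu (tM.cmul hU η), ← In_neg]
    refine In_mono hU ok.tp ok.ts ((tu.add hU (tM.cmul hU η)).neg hU) (t1.add hU t2)
      fun z hz => ?_
    by_cases hχz : χ z = 0
    · have := mul_nonneg (hZ0 z hz) (uZ z hz)
      unfold tn
      rw [hχz]
      simpa using this
    · have h := (abs_le.1 ((hp' z hz hχz).on (Ch.XX σ W a z) (Ch.XX τ W b z) (a z) (b z))).1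
      have e1 : (fun i => YY σ W a i z) = fun i => 2 * a z * σ.D i W z - Ch.XX σ W a z i :=
        funext fun i => YY_XX i
      have e2 : (fun i => YY τ W b i z) = fun i => 2 * b z * τ.D i W z - Ch.XX τ W b z i :=
        funext fun i => YY_XX i
      unfold tn ud
      rw [e1, e2]
      linarith
  -- the pointwise inequality, integrated
  have tTH := (tTH ok ot hW ha hb).mul_left hU hχ2
  have tqq := (tqs ok ot hv₁ hv₂ hW ha hb).mul_left hU hχ2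
  have tC1 : Te U fun z => χ z ^ 2 * TC σ c W (XX σ W a) z :=
    (tTC (c := c) ok hc hW fun i => tX ok hW ha i).mul_left hU hχ2
  have tC2 : Te U fun z => χ z ^ 2 * TC τ c' W (XX τ W b) z :=
    (tTC (c := c') ot hc' hW fun i => tX ot hW hb i).mul_left hU hχ2
  have sdF1 : Sm U (dF σ c W) := Sm.sum _ fun j _ =>
    (ok.sD ((ok.sF hW).mul (hc j)) j).add ((ok.ks j).mul ((ok.sF hW).mul (hc j)))
  have sdF2 : Sm U (dF τ c' W) := Sm.sum _ fun j _ =>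
    (ot.sD ((ot.sF hW).mul (hc' j)) j).add ((ot.ks j).mul ((ot.sF hW).mul (hc' j)))
  have tD1 : Te U fun z => χ z ^ 2 * (dF σ c W z * a z ^ 2) :=
    ((ha.sq hU).mul_left hU sdF1).mul_left hU hχ2
  have tD2 : Te U fun z => χ z ^ 2 * (dF τ c' W z * b z ^ 2) :=
    ((hb.sq hU).mul_left hU sdF2).mul_left hU hχ2
  have key : 4 * (In U θ (fun z => χ z ^ 2 * (k z * ∑ i, XX σ W a i z ^ 2)) +
        In U θ (fun z => χ z ^ 2 * (k z * ∑ i, XX τ W b i z ^ 2))) +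
      L₀ * In U θ (fun z => χ z ^ 2 * (g z * wq p q z (Ch.XX σ W a z) (Ch.XX τ W b z))) -
      C₁ * In U θ (fun z => χ z ^ 2 * (e z * (a z + b z) ^ 2)) -
      η * (In U θ (fun z => χ z ^ 2 * (k z * σ.F W z * a z ^ 2)) +
        In U θ (fun z => χ z ^ 2 * (k z * τ.F W z * b z ^ 2))) ≤
      In U θ (fun z => χ z ^ 2 * sta σ τ v₁ v₂ W a b z) +
      8 * (In U θ (fun z => χ z ^ 2 * TC σ c W (XX σ W a) z) +
        In U θ (fun z => χ z ^ 2 * TC τ c' W (XX τ W b) z)) +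
      16 * (In U θ (fun z => χ z ^ 2 * (dF σ c W z * a z ^ 2)) +
        In U θ (fun z => χ z ^ 2 * (dF τ c' W z * b z ^ 2))) := by
    rw [← In_add hU ok.ts tX1 tX2, ← In_add hU ok.ts tF1 tF2, ← In_add hU ok.ts tC1 tC2,
      ← In_add hU ok.ts tD1 tD2, ← In_cmul, ← In_cmul, ← In_cmul, ← In_cmul, ← In_cmul, ← In_cmul,
      ← In_add hU ok.ts ((tX1.add hU tX2).cmul hU 4) (tQ.cmul hU L₀),
      ← In_sub hU ok.ts (((tX1.add hU tX2).cmul hU 4).add hU (tQ.cmul hU L₀)) (tS.cmul hU C₁),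
      ← In_sub hU ok.ts ((((tX1.add hU tX2).cmul hU 4).add hU (tQ.cmul hU L₀)).sub hU
        (tS.cmul hU C₁)) ((tF1.add hU tF2).cmul hU η),
      ← In_add hU ok.ts tst ((tC1.add hU tC2).cmul hU 8),
      ← In_add hU ok.ts (tst.add hU ((tC1.add hU tC2).cmul hU 8)) ((tD1.add hU tD2).cmul hU 16)]
    refine In_mono hU ok.tp ok.ts (((((tX1.add hU tX2).cmul hU 4).add hU (tQ.cmul hU L₀)).sub hU
      (tS.cmul hU C₁)).sub hU ((tF1.add hU tF2).cmul hU η))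
      ((tst.add hU ((tC1.add hU tC2).cmul hU 8)).add hU ((tD1.add hU tD2).cmul hU 16))
      fun z hz => ?_
    by_cases hχz : χ z = 0
    · rw [hχz]; simp
    · have h := (hp' z hz hχz).tot (Ch.XX σ W a z) (Ch.XX τ W b z) (a z) (b z)
      have h2 := mul_le_mul_of_nonneg_left h (sq_nonneg (χ z))
      have c1 : TC σ c W (XX σ W a) z = tc σ c W z (Ch.XX σ W a z) := rfl
      have c2 : TC τ c' W (XX τ W b) z = tc τ c' W z (Ch.XX τ W b z) := rfl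
      have c3 : ∑ i, XX σ W a i z ^ 2 = ∑ i, Ch.XX σ W a z i ^ 2 := rfl
      have c4 : ∑ i, XX τ W b i z ^ 2 = ∑ i, Ch.XX τ W b z i ^ 2 := rfl
      unfold sta
      rw [c1, c2, c3, c4, qs_qf]
      linarith
  have e1 : In U θ (fun z => χ z ^ 2 * dn σ τ v₁ v₂ W a b z) =
      In U θ (fun z => χ z ^ 2 * sqd σ τ v₁ v₂ W a b z) +
      In U θ (fun z => χ z ^ 2 * sta σ τ v₁ v₂ W a b z) := by
    rw [← In_add hU ok.ts tsq tst]
    refine In_congr hU fun z _ => ?_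
    unfold dn; ring
  have tP1 : Te U fun z => χ z ^ 2 * σ.P v₁ W a z ^ 2 :=
    ((ok.tP hv₁ hW ha).sq hU).mul_left hU hχ2
  have tP2 : Te U fun z => χ z ^ 2 * τ.P v₂ W b z ^ 2 :=
    ((ot.tP hv₂ hW hb).sq hU).mul_left hU hχ2
  have hPP : In U θ (fun z => χ z ^ 2 * σ.P v₁ W a z ^ 2) +
      In U θ (fun z => χ z ^ 2 * τ.P v₂ W b z ^ 2) ≤
      In U θ (fun z => χ z ^ 2 * sqd σ τ v₁ v₂ W a b z) := by
    rw [← In_add hU ok.ts tP1 tP2]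
    refine In_mono hU ok.tp ok.ts (tP1.add hU tP2) tsq fun z _ => ?_
    unfold sqd
    have h0 := sq_nonneg (χ z)
    have h1 := mul_nonneg h0 (sq_nonneg (τ.P v₂ W a z))
    have h2 := mul_nonneg h0 (sq_nonneg (σ.P v₁ W b z))
    linarith
  have hP : 0 ≤ In U θ (fun z => χ z ^ 2 * sqd σ τ v₁ v₂ W a b z) :=
    In_nonneg hU ok.tp fun z _ => mul_nonneg (sq_nonneg _) (sqd_nonneg σ τ v₁ v₂ W a b z)
  have hQ : 0 ≤ In U θ (fun z => χ z ^ 2 * (g z * wq p q z (Ch.XX σ W a z) (Ch.XX τ W b z))) :=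
    In_nonneg hU ok.tp fun z hz => mul_nonneg (sq_nonneg _)
      (mul_nonneg (hg0 z hz) (wq_nonneg p q z _ _))
  have hX1 : 0 ≤ In U θ (fun z => χ z ^ 2 * (k z * ∑ i, XX σ W a i z ^ 2)) :=
    In_nonneg hU ok.tp fun z hz => mul_nonneg (sq_nonneg _)
      (mul_nonneg (hk0 z hz) (Finset.sum_nonneg fun _ _ => sq_nonneg _))
  have hX2 : 0 ≤ In U θ (fun z => χ z ^ 2 * (k z * ∑ i, XX τ W b i z ^ 2)) :=
    In_nonneg hU ok.tp fun z hz => mul_nonneg (sq_nonneg _)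
      (mul_nonneg (hk0 z hz) (Finset.sum_nonneg fun _ _ => sq_nonneg _))
  have hF1 : 0 ≤ In U θ (fun z => χ z ^ 2 * (k z * σ.F W z * a z ^ 2)) :=
    In_nonneg hU ok.tp fun z hz => mul_nonneg (sq_nonneg _)
      (mul_nonneg (mul_nonneg (hk0 z hz) ((el₁ z hz).F0 W)) (sq_nonneg _))
  have hF2 : 0 ≤ In U θ (fun z => χ z ^ 2 * (k z * τ.F W z * b z ^ 2)) :=
    In_nonneg hU ok.tp fun z hz => mul_nonneg (sq_nonneg _)
      (mul_nonneg (mul_nonneg (hk0 z hz) ((el₂ z hz).F0 W)) (sq_nonneg _))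
  have hZZ : 0 ≤ In U θ (fun z => Z z * ud σ τ W g e p q a b z) :=
    In_nonneg hU ok.tp fun z hz => mul_nonneg (hZ0 z hz) (uZ z hz)
  rw [e1]
  have hS : 0 ≤ In U θ (fun z => χ z ^ 2 * (e z * (a z + b z) ^ 2)) :=
    In_nonneg hU ok.tp fun z hz => mul_nonneg (sq_nonneg _)
      (mul_nonneg (he0 z hz) (sq_nonneg _))
  rw [eM] at ton
  refine fin_arith' (κ₀ := 1 / 8) (η := η) (δ := δ) (L₀ := L₀) (C₁ := C₁) (C₂ := C₂) rfl
    hη hη1 hC1 hδ hL hP hQ hS hX1 hX2 hF1 hF2 hZZ (Y₁ :=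
      In U θ (fun z => χ z ^ 2 * (k z * ∑ i, YY σ W a i z ^ 2))) (Y₂ :=
      In U θ (fun z => χ z ^ 2 * (k z * ∑ i, YY τ W b i z ^ 2))) ?_ ?_ ?_ ?_ ?_ kt
  · linarith only [key, w1, w2, r1, r2, ton, hPP, hP]
  · linarith only [f1, hZu, hZ1, hZ2]
  · linarith only [f2, hZu, hZ1, hZ2]
  · linarith only [y1, hZu, hZ1, hZ2]
  · linarith only [y2, hZu, hZ1, hZ2]

end integral

end Vale.Agent.P088.R2.H972.E
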