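import Vale.Agent.P088.R2.H972.E.PB

/-!
# P088, stage 3: pair payments near | near, by a master density

`mst ν G`: all letters of a near point; every near payer dominates `c mst` with its own weight `G`
of `(a - b)²` (`mb_MI`, `mb_MB`, `mb_MII`), every near cost is at most `ε mst` (`cc_I`, `cc_II`,
`cc_B`).
-/

open Set

noncomputable section

namespace Vale.Agent.P088.R2.H972.E

open Vale.Agent.P088.R2.H961.GW Vale.Agent.P088.R2.H644 Vale.Agent.P088.R2.H551.E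
open Vale.Agent.P088.R2.H165.Tab Vale.Agent.P088.R2.H338.E

variable {E ι : Type*} [NormedAddCommGroup E] [NormedSpace ℝ E] [Fintype ι]
variable {σ τ : Sl E ι} {v₁ v₂ W a b : E → ℝ} {z : E}

/-- The master density. -/
def mst (ν : Nu E) (G : E → ℝ) : Q8 E where
  κ _ := 1
  ζ₁ _ := 1
  ζ₂ _ := 1
  ζy z := ν.En z / (1 + ν.m z)
  w₁ z := ν.F₁ z
  w₂ z := ν.F₂ z
  wb z := ν.En z ^ 2
  wc := G

/-- Eight inequalities `q p ≤ M`. -/
structure L8 (p M : Q8 E) (q : ℝ) (z : E) : Prop where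
  κ : q * p.κ z ≤ M.κ z
  y : q * p.ζy z ≤ M.ζy z
  z₁ : q * p.ζ₁ z ≤ M.ζ₁ z
  z₂ : q * p.ζ₂ z ≤ M.ζ₂ z
  b : q * p.wb z ≤ M.wb z
  c : q * p.wc z ≤ M.wc z
  w₁ : q * p.w₁ z ≤ M.w₁ z
  w₂ : q * p.w₂ z ≤ M.w₂ z

theorem L8.dens {p M : Q8 E} {q : ℝ} (h : L8 p M q z) :
    q * p.dens σ τ v₁ v₂ W a b z ≤ M.dens σ τ v₁ v₂ W a b z := by
  refine pay8 q 0 0 0 0 le_rfl le_rfl le_rfl h.κ ?_ ?_ ?_ ?_ ?_ ?_ ?_ <;>
    simp only [mul_zero, add_zero]
  · exact h.y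
  · exact h.z₁
  · exact h.z₂
  · exact h.b
  · exact h.c
  · exact h.w₁
  · exact h.w₂

/-- `M` dominates `c` times the master density with the weight `G` at `z`. -/
def Mb (σ τ : Sl E ι) (v₁ v₂ W : E → ℝ) (ν : Nu E) (M : Q8 E) (c : ℝ) (G : E → ℝ) (z : E) : Prop :=
  ∀ a b : E → ℝ, c * (mst ν G).dens σ τ v₁ v₂ W a b z ≤ M.dens σ τ v₁ v₂ W a b z

/-- The cost `p` is at most `e` times the master density with the weight `G` at `z`. -/
def Cc (σ τ : Sl E ι) (v₁ v₂ W : E → ℝ) (ν : Nu E) (p : Q8 E) (e : ℝ) (G : E → ℝ) (z : E) : Prop :=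
  ∀ a b : E → ℝ, p.dens σ τ v₁ v₂ W a b z ≤ e * (mst ν G).dens σ τ v₁ v₂ W a b z

theorem mst_nn {ν : Nu E} {G : E → ℝ} (nn : NN ν z) (hG : 0 ≤ G z) :
    0 ≤ (mst ν G).dens σ τ v₁ v₂ W a b z := by
  have h2 := nn.En
  have h3 := nn.m
  have k0 := sqd_nonneg σ τ v₁ v₂ W a b z
  have k1 := Q8.nX_nonneg σ W a z
  have k2 := Q8.nX_nonneg τ W b z
  have k3 := Q8.nY_nonneg σ τ W a b z
  have k4 := nn.F₁
  have k5 := nn.F₂
  unfold Q8.dens mst
  simp only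
  positivity

/-- **The payment.** -/
theorem Mb.pay {ν : Nu E} {M p : Q8 E} {c e q : ℝ} {G : E → ℝ} (h : Mb σ τ v₁ v₂ W ν M c G z)
    (h' : Cc σ τ v₁ v₂ W ν p e G z) (nn : NN ν z) (hG : 0 ≤ G z) (hq : 0 ≤ q) (he : q * e ≤ c)
    (a b : E → ℝ) : q * p.dens σ τ v₁ v₂ W a b z ≤ M.dens σ τ v₁ v₂ W a b z := by
  have k0 := mst_nn (σ := σ) (τ := τ) (v₁ := v₁) (v₂ := v₂) (W := W) (a := a) (b := b) nn hG
  have k1 := mul_le_mul_of_nonneg_left (h' a b) hq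
  have k2 := mul_le_mul_of_nonneg_right he k0
  have k3 := h a b
  linarith

/-! ## Payers -/

omit [NormedAddCommGroup E] [NormedSpace ℝ E] in
theorem div_m_le {ν : Nu E} (nn : NN ν z) : ν.En z / (1 + ν.m z) ≤ ν.En z :=
  div_le_self nn.En.le (by linarith [nn.m])

theorem mb_MI {ν : Nu E} {c : ℝ} (nn : NN ν z) (hc : 0 ≤ c) :
    Mb σ τ v₁ v₂ W ν (MI ν c) c ν.wI z := fun a b => by
  refine L8.dens (p := mst ν ν.wI) (M := MI ν c) ⟨?_, ?_, ?_, ?_, le_rfl, le_rfl, le_rfl, le_rfl⟩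
  · simp [mst, MI]
  · exact mul_le_mul_of_nonneg_left (div_m_le nn) hc
  · simp [mst, MI]
  · simp [mst, MI]

theorem mb_MB {ν : Nu E} {c : ℝ} : Mb σ τ v₁ v₂ W ν (MB ν c) c ν.wB z := fun a b => by
  refine L8.dens (p := mst ν ν.wB) (M := MB ν c) ⟨?_, le_rfl, ?_, ?_, le_rfl, le_rfl, le_rfl, le_rfl⟩
  all_goals simp [mst, MB]

/-- Zone II: `G = k f`, `f ≤ F₁, F₂`. -/
theorem mb_MII {ν : Nu E} {f : E → ℝ} (nn : NN ν z) (hm : 0 < ν.m z) (hk : 1 ≤ ν.k z)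
    (hf : 0 ≤ f z) (h1 : f z ≤ ν.F₁ z) (h2 : f z ≤ ν.F₂ z) :
    Mb σ τ v₁ v₂ W ν (MII ν) (1 / 16) (fun z => ν.k z * f z) z := fun a b => by
  have r0 := nn.r
  have e0 := nn.En
  have f1 := nn.F₁
  have f2 := nn.F₂
  have k0 : 0 ≤ ν.k z := by linarith
  have g1 := mul_le_mul_of_nonneg_right hk f1
  have g2 := mul_le_mul_of_nonneg_right hk f2
  have l1 := mul_le_mul_of_nonneg_left h1 k0
  have l2 := mul_le_mul_of_nonneg_left h2 k0
  have l0 : 0 ≤ ν.k z * f z := mul_nonneg k0 hf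
  have hi : ν.En z / (1 + ν.m z) ≤ (ν.r2 z)⁻¹ := by
    rw [inv_m nn hm]
    exact div_le_div_of_nonneg_left e0.le hm (by linarith)
  refine pay8 (p := mst ν fun z => ν.k z * f z) (M := MII ν) (1 / 16) 0 0 (1 / 16 * (ν.k z * f z)) 0
    le_rfl le_rfl (by positivity) ?_ ?_ ?_ ?_ ?_ ?_ ?_ ?_
  · simp only [mst, MII]; norm_num
  · simp only [mst, MII]
    have : 0 ≤ (ν.r2 z)⁻¹ := by positivity
    linarith
  · simp only [mst, MII]; linarith
  · simp only [mst, MII]; linarith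
  · simp only [mst, MII]
    have := sq_nonneg (ν.En z)
    linarith
  · simp only [mst, MII]; linarith
  · simp only [mst, MII]
    linarith
  · simp only [mst, MII]
    linarith

/-! ## Costs -/

theorem cc_I {C e : ℝ} {ν : Nu E} {Zq Zp G : E → ℝ} (nn : NN ν z) (he : 0 ≤ e)
    (h1 : C * (ν.En z * Zq z) ≤ e * ν.En z ^ 2) (h2 : C * (ν.En z * Zp z + Zq z) ≤ e * G z) :
    Cc σ τ v₁ v₂ W ν (cI ν C Zq Zp) e G z := fun a b => by
  have e0 := nn.En
  have f1 := nn.F₁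
  have f2 := nn.F₂
  have hm := nn.m
  have k0 := sqd_nonneg σ τ v₁ v₂ W a b z
  have k1 := Q8.nX_nonneg σ W a z
  have k2 := Q8.nX_nonneg τ W b z
  have k3 := Q8.nY_nonneg σ τ W a b z
  have j1 := mul_le_mul_of_nonneg_right h1 (sq_nonneg (a z + b z))
  have j2 := mul_le_mul_of_nonneg_right h2 (sq_nonneg (a z - b z))
  have j3 : 0 ≤ e * (ν.En z / (1 + ν.m z)) * nY σ τ W a b z := by positivity
  have j4 : 0 ≤ e * (ν.F₁ z * a z ^ 2 + ν.F₂ z * b z ^ 2) := by positivity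
  have j5 : 0 ≤ e * (sqd σ τ v₁ v₂ W a b z + nX σ W a z + nX τ W b z) := by positivity
  unfold Q8.dens mst cI
  simp only
  linarith

theorem cc_II {C e : ℝ} {ν : Nu E} {Z G : E → ℝ} (nn : NN ν z) (he : 0 ≤ e) (hG : 0 ≤ G z)
    (hZ : 0 ≤ C * Z z) (h : C * Z z = 0 ∨ (1 ≤ ν.m z ∧ 2 * (C * Z z) ≤ e)) :
    Cc σ τ v₁ v₂ W ν (cII ν C Z) e G z := fun a b => by
  have e0 := nn.En
  have f1 := nn.F₁
  have f2 := nn.F₂
  have hm := nn.m
  rcases h with h | ⟨h1, h2⟩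
  · have k := mst_nn (σ := σ) (τ := τ) (v₁ := v₁) (v₂ := v₂) (W := W) (a := a) (b := b)
      (ν := ν) (G := G) nn hG
    have e1 : (cII ν C Z).dens σ τ v₁ v₂ W a b z = C * Z z * (uf ν).dens σ τ v₁ v₂ W a b z := by
      unfold cII
      rw [Q8.dens_sm]
    rw [e1, h, zero_mul]
    positivity
  · have k0 := sqd_nonneg σ τ v₁ v₂ W a b z
    have k1 := Q8.nX_nonneg σ W a z
    have k2 := Q8.nX_nonneg τ W b z
    have k3 := Q8.nY_nonneg σ τ W a b z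
    have h3 : C * Z z ≤ e := by linarith
    have hi : C * Z z * (ν.r2 z)⁻¹ ≤ e * (ν.En z / (1 + ν.m z)) := by
      rw [inv_m nn (by linarith)]
      have i1 : ν.En z / ν.m z ≤ 2 * (ν.En z / (1 + ν.m z)) := by
        rw [← mul_div_assoc, div_le_div_iff₀ (by linarith) (by linarith)]
        nlinarith
      have i2 := mul_le_mul_of_nonneg_left i1 hZ
      have i3 : 0 ≤ ν.En z / (1 + ν.m z) := by positivity
      have i4 := mul_le_mul_of_nonneg_right h2 i3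
      linarith
    have j1 := mul_le_mul_of_nonneg_right hi k3
    have j2 := mul_le_mul_of_nonneg_right h3 k1
    have j3 := mul_le_mul_of_nonneg_right h3 k2
    have j4 := mul_le_mul_of_nonneg_right h3 (mul_nonneg f1 (sq_nonneg (a z)))
    have j5 := mul_le_mul_of_nonneg_right h3 (mul_nonneg f2 (sq_nonneg (b z)))
    have j6 := mul_le_mul_of_nonneg_right h3 (mul_nonneg (sq_nonneg (ν.En z))
      (sq_nonneg (a z + b z)))
    have j7 : 0 ≤ e * (G z * (a z - b z) ^ 2) := by positivity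
    have j8 : 0 ≤ e * sqd σ τ v₁ v₂ W a b z := by positivity
    have e1 : (cII ν C Z).dens σ τ v₁ v₂ W a b z = C * Z z * (uf ν).dens σ τ v₁ v₂ W a b z := by
      unfold cII
      rw [Q8.dens_sm]
    rw [e1]
    unfold Q8.dens mst uf
    simp only
    linarith

theorem cc_B {C e : ℝ} {ν : Nu E} {Z Zq G : E → ℝ} (nn : NN ν z) (h : C * Z z ≤ e)
    (hq : C * Zq z ≤ e) (hw : C * Z z * ν.wB z ≤ e * G z) :
    Cc σ τ v₁ v₂ W ν (cB ν C Z Zq) e G z := fun a b => by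
  have e0 := nn.En
  have f1 := nn.F₁
  have f2 := nn.F₂
  have hm := nn.m
  have k0 := sqd_nonneg σ τ v₁ v₂ W a b z
  have k1 := Q8.nX_nonneg σ W a z
  have k2 := Q8.nX_nonneg τ W b z
  have k3 := Q8.nY_nonneg σ τ W a b z
  have hg : 0 ≤ ν.En z / (1 + ν.m z) := by positivity
  have j0 := mul_le_mul_of_nonneg_right hq k0
  have j1 := mul_le_mul_of_nonneg_right h (mul_nonneg hg k3)
  have j2 := mul_le_mul_of_nonneg_right h k1
  have j3 := mul_le_mul_of_nonneg_right h k2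
  have j4 := mul_le_mul_of_nonneg_right h (mul_nonneg f1 (sq_nonneg (a z)))
  have j5 := mul_le_mul_of_nonneg_right h (mul_nonneg f2 (sq_nonneg (b z)))
  have j6 := mul_le_mul_of_nonneg_right h (mul_nonneg (sq_nonneg (ν.En z))
    (sq_nonneg (a z + b z)))
  have j7 := mul_le_mul_of_nonneg_right hw (sq_nonneg (a z - b z))
  have e1 : (cB ν C Z Zq).dens σ τ v₁ v₂ W a b z = C * Z z * (uB ν).dens σ τ v₁ v₂ W a b z +
      C * Zq z * sqd σ τ v₁ v₂ W a b z := by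
    unfold cB
    rw [Q8.dens_add, Q8.dens_sm]
    unfold Q8.dens
    simp only [Pi.zero_apply]
    ring
  rw [e1]
  unfold Q8.dens mst uB
  simp only
  linarith

end Vale.Agent.P088.R2.H972.E
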